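import Vale.Agent.P183L.Classify
import Vale.Agent.P183.Dual.Main

/-!
Duals of order tables.
-/

namespace Vale.Agent.P183L.Small

open Vale.Agent.P183

universe u

/-- The table `b'` is the table `b` read upside down. -/
theorem rep_of_dual {n b b' : ℕ}
    (h : ∀ a, a < n → ∀ c, c < n → tblB n b a c = tblB n b' (n - (c + 1)) (n - (a + 1)))
    (hrep : ∀ {P : Type u} [Lattice P] [Finite P] (e : P ≃ Fin n),
      (∀ x y : P, x ≤ y ↔ tblB n b' (e x) (e y) = true) → Representable P)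
    {L : Type u} [Lattice L] [Finite L] (e : L ≃ Fin n)
    (he : ∀ x y : L, x ≤ y ↔ tblB n b (e x) (e y) = true) : Representable L := by
  have : Finite Lᵒᵈ := inferInstanceAs (Finite L)
  let e' : Lᵒᵈ ≃ Fin n := (OrderDual.ofDual.trans e).trans Fin.revPerm
  refine Up.representable_dual_iff.1 (hrep e' ?_)
  intro x y
  have h1 : x ≤ y ↔ OrderDual.ofDual y ≤ OrderDual.ofDual x := Iff.rfl
  rw [h1, he, h _ (e (OrderDual.ofDual y)).isLt _ (e (OrderDual.ofDual x)).isLt]
  rfl

/-- Check of the numbering of the pairs. -/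
theorem hp_of_check {n N : ℕ} {pidx : ℕ → ℕ → ℕ} {pa pb : ℕ → ℕ}
    (h : allB n (fun a => allB n (fun b =>
      or (not (and (Nat.ble 1 a) (and (Nat.ble (Nat.add a 1) b) (Nat.ble (Nat.add b 2) n))))
        (and (Nat.ble (Nat.add (pidx a b) 1) N) (and (Nat.beq (pa (pidx a b)) a)
          (Nat.beq (pb (pidx a b)) b))))) = true) :
    ∀ a b, 1 ≤ a → a < b → b + 1 < n → pidx a b < N ∧ pa (pidx a b) = a ∧ pb (pidx a b) = b := by
  intro a b h1 h2 h3
  have h4 := allB_spec (allB_spec h a (by omega)) b (by omega)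
  have e1 : Nat.ble 1 a = true := Nat.ble_eq_true_of_le h1
  have e2 : Nat.ble (Nat.add a 1) b = true := Nat.ble_eq_true_of_le h2
  have e3 : Nat.ble (Nat.add b 2) n = true := Nat.ble_eq_true_of_le h3
  rw [e1, e2, e3] at h4
  simp only [Bool.and_true, Bool.not_true, Bool.false_or, Bool.and_eq_true] at h4
  exact ⟨Nat.le_of_ble_eq_true h4.1, Nat.eq_of_beq_eq_true h4.2.1, Nat.eq_of_beq_eq_true h4.2.2⟩

end Vale.Agent.P183L.Small
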