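import Vale.Agent.P183.Lift.Main

/-!
# Lifting the lattices `b` and `gd`

Two seven element lattices obtained from six element lattices by doubling a join irreducible:
both are handled by the lifting theorem, with explicit tables checked by the kernel.
-/

namespace Vale.Agent.P183L.Uni

open Vale.Agent.P183

universe u

/-- Representability only depends on the order. -/
theorem representable_of_orderIso {X : Type u} [PartialOrder X] {Y : Type*} [PartialOrder Y]
    (e : X ≃o Y) (h : Representable Y) : Representable X := by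
  obtain ⟨A, h1, h2, n, ar, op, ⟨f⟩⟩ := h
  exact ⟨A, h1, h2, n, ar, op, ⟨e.trans f⟩⟩

section General

variable {L0 : Type} [Lattice L0] [OrderBot L0] [Fintype L0] [DecidableEq L0]
  [DecidableLE L0]

/-- The members of `J0` below `x`. -/
def below (J0 : Finset L0) (x : L0) : Finset L0 := J0.filter (fun c => c ≤ x)

/-- The members of `J0` below a member of `B`. -/
def refined (J0 B : Finset L0) : Finset L0 := J0.filter (fun c => ∃ b ∈ B, c ≤ b)

omit [Fintype L0] [DecidableEq L0] in
theorem mem_join_closure_iff [DecidableEq L0] (J0 : Finset L0) (x : L0) :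
    (∃ s : Set L0, s ⊆ (J0 : Set L0) ∧ IsLUB s x) ↔ (below J0 x).sup id = x := by
  constructor
  · rintro ⟨s, hs, h⟩
    apply le_antisymm
    · exact Finset.sup_le (fun c hc => (Finset.mem_filter.1 hc).2)
    · apply h.2
      intro c hc
      have h1 : c ∈ below J0 x := Finset.mem_filter.2 ⟨hs hc, h.1 hc⟩
      exact Finset.le_sup (f := id) h1
  · intro h
    refine ⟨(below J0 x : Set L0), fun c hc => (Finset.mem_filter.1 hc).1, ?_⟩
    constructor
    · intro c hc
      rw [← h]
      exact Finset.le_sup (f := id) hc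
    · intro y hy
      rw [← h]
      exact Finset.sup_le (fun c hc => hy hc)

omit [Fintype L0] [DecidableEq L0] [DecidableLE L0] in
theorem supIrred_of_check {a : L0} (h : a ≠ ⊥ ∧ ∀ b c : L0, b ⊔ c = a → b = a ∨ c = a) :
    SupIrred a :=
  ⟨fun hmin => h.1 (isMin_iff_eq_bot.1 hmin), fun _ _ hbc => h.2 _ _ hbc⟩

omit [Fintype L0] [DecidableEq L0] [DecidableLE L0] in
theorem check_of_supIrred {a : L0} (h : SupIrred a) :
    a ≠ ⊥ ∧ ∀ b c : L0, b ⊔ c = a → b = a ∨ c = a :=
  ⟨fun h0 => h.1 (isMin_iff_eq_bot.2 h0), fun _ _ hbc => h.2 hbc⟩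

/-- The lifting theorem with all witnesses chosen canonically. -/
theorem rep_of_checks (J0 : Finset L0)
    (hirr : ∀ c ∈ J0, SupIrred c)
    (hcov : ∀ a : L0, SupIrred a → ∀ B : Finset L0, B.Nonempty → a ≤ B.sup id → (∀ b ∈ B, ¬ a ≤ b) →
      (refined J0 B).Nonempty ∧ a ≤ (refined J0 B).sup id)
    {P : Type} [PartialOrder P]
    (g : P → L0) (hg : ∀ x y, g x ≤ g y ↔ x ≤ y) (hg' : ∀ x : L0, (below J0 x).sup id = x ↔ ∃ y, g y = x)
    (hP : Representable P) : Representable L0 := by
  classical
  have h0 : Nonempty L0 := ⟨⊥⟩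
  have hsub : ∀ a : L0, SupIrred a → ∀ (B : Finset L0) (hB : B.Nonempty), a ≤ B.sup' hB id →
      (∀ b ∈ B, ¬ a ≤ b) → ∃ (C : Finset L0) (hC : C.Nonempty),
        (∀ c ∈ C, c ∈ J0 ∧ ∃ b ∈ B, c ≤ b) ∧ a ≤ C.sup' hC id := by
    intro a ha B hB h1 h2
    rw [Finset.sup'_eq_sup] at h1
    obtain ⟨h3, h4⟩ := hcov a ha B hB h1 h2
    refine ⟨refined J0 B, h3, fun c hc => Finset.mem_filter.1 hc, ?_⟩
    rw [Finset.sup'_eq_sup]
    exact h4
  refine Lift.representable_lift L0 (J0 : Set L0) (fun _ => 0) (fun c hc => hirr c hc)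
    (fun a ha B hB h1 h2 => hsub a (hirr a ha) B hB h1 h2) ?_ ?_
  · intro a ha _ B hB h1 h2
    obtain ⟨C, hC, h3, h4⟩ := hsub a ha B hB h1 h2
    refine ⟨C, hC, fun c hc => ?_, h4⟩
    obtain ⟨h5, h6⟩ := h3 c hc
    exact ⟨hirr c h5, Or.inl h5, h6⟩
  · have hinj : Function.Injective g := fun x y h =>
      le_antisymm ((hg x y).1 (le_of_eq h)) ((hg y x).1 (le_of_eq h.symm))
    have hmem : ∀ y : P, ∃ s : Set L0, s ⊆ (J0 : Set L0) ∧ IsLUB s (g y) := fun y =>
      (mem_join_closure_iff J0 (g y)).2 ((hg' _).2 ⟨y, rfl⟩)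
    let F : P → {x : L0 // ∃ s : Set L0, s ⊆ (J0 : Set L0) ∧ IsLUB s x} := fun y => ⟨g y, hmem y⟩
    have hF : Function.Surjective F := by
      rintro ⟨x, hx⟩
      obtain ⟨y, rfl⟩ := (hg' x).1 ((mem_join_closure_iff J0 x).1 hx)
      exact ⟨y, rfl⟩
    let e : P ≃o {x : L0 // ∃ s : Set L0, s ⊆ (J0 : Set L0) ∧ IsLUB s x} :=
      RelIso.ofSurjective (OrderEmbedding.ofMapLEIff F (fun x y => hg x y)) hF
    exact representable_of_orderIso e.symm hP

end General

/-! ### The table of `M_4` and the lattice `b` -/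

/-- The order of `M_4`: bottom `0`, top `5`, atoms `1, 2, 3, 4`. -/
def tM4 (x y : Fin 6) : Bool := decide (x = 0 ∨ y = 5 ∨ x = y)

/-- The lattice `M_4`, on `Fin 6`. -/
def LM4 : Type := Fin 6

instance : Fintype LM4 := inferInstanceAs (Fintype (Fin 6))
instance : DecidableEq LM4 := inferInstanceAs (DecidableEq (Fin 6))

/-- The join in `M_4`. -/
def supM4 (x y : Fin 6) : Fin 6 :=
  if tM4 x y then y else if tM4 y x then x else 5

/-- The meet in `M_4`. -/
def infM4 (x y : Fin 6) : Fin 6 :=
  if tM4 x y then x else if tM4 y x then y else 0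

instance : Lattice LM4 where
  le x y := tM4 x y = true
  le_refl := by unfold LM4; decide
  le_trans := by unfold LM4; decide
  le_antisymm := by unfold LM4; decide
  sup := supM4
  le_sup_left := by unfold LM4; decide
  le_sup_right := by unfold LM4; decide
  sup_le := by unfold LM4; decide
  inf := infM4
  inf_le_left := by unfold LM4; decide
  inf_le_right := by unfold LM4; decide
  le_inf := by unfold LM4; decide

instance : Finite LM4 := inferInstanceAs (Finite (Fin 6))

/-- The order of `b`: the lattice `M_4` with the atom `1` doubled to `1 < 2`. -/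
def tb (x y : Fin 7) : Bool := decide (x = 0 ∨ y = 6 ∨ x = y ∨ (x = 1 ∧ y = 2))

/-- The lattice `b`, on `Fin 7`. -/
def Lb : Type := Fin 7

instance : Fintype Lb := inferInstanceAs (Fintype (Fin 7))
instance : DecidableEq Lb := inferInstanceAs (DecidableEq (Fin 7))

/-- The join in `b`. -/
def supb (x y : Fin 7) : Fin 7 :=
  if tb x y then y else if tb y x then x else 6

/-- The meet in `b`. -/
def infb (x y : Fin 7) : Fin 7 :=
  if tb x y then x else if tb y x then y else 0

instance : Lattice Lb where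
  le x y := tb x y = true
  le_refl := by unfold Lb; decide
  le_trans := by unfold Lb; decide
  le_antisymm := by unfold Lb; decide
  sup := supb
  le_sup_left := by unfold Lb; decide
  le_sup_right := by unfold Lb; decide
  sup_le := by unfold Lb; decide
  inf := infb
  inf_le_left := by unfold Lb; decide
  inf_le_right := by unfold Lb; decide
  le_inf := by unfold Lb; decide

instance : OrderBot Lb where
  bot := (0 : Fin 7)
  bot_le := fun x => (by decide : ∀ x : Fin 7, tb 0 x = true) x

instance : DecidableLE Lb := fun x y => inferInstanceAs (Decidable (tb x y = true))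

/-- The set `J0` of `b`. -/
def J0b : Finset Lb := ({(1 : Fin 7), 3, 4, 5} : Finset (Fin 7))

/-- The embedding of `M_4` as the join closure of `J0b`. -/
def gb (x : LM4) : Lb := (![0, 1, 3, 4, 5, 6] : Fin 6 → Fin 7) x

theorem rep_Lb (hP : Representable LM4) : Representable Lb :=
  rep_of_checks J0b
    (fun c hc => supIrred_of_check
      ((by decide +kernel : ∀ c : Lb, c ∈ J0b →
        c ≠ ⊥ ∧ ∀ b d : Lb, b ⊔ d = c → b = c ∨ d = c) c hc))
    (fun a ha B hB h1 h2 =>
      (by decide +kernel : ∀ a : Lb, (a ≠ ⊥ ∧ ∀ b d : Lb, b ⊔ d = a → b = a ∨ d = a) →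
        ∀ B : Finset Lb, B.Nonempty → a ≤ B.sup id → (∀ b ∈ B, ¬ a ≤ b) →
          (refined J0b B).Nonempty ∧ a ≤ (refined J0b B).sup id)
        a (check_of_supIrred ha) B hB h1 h2)
    gb
    (by
      intro x y
      exact (by decide +kernel : ∀ x y : Fin 6,
        tb ((![0, 1, 3, 4, 5, 6] : Fin 6 → Fin 7) x) ((![0, 1, 3, 4, 5, 6] : Fin 6 → Fin 7) y) = true ↔
          tM4 x y = true) x y)
    (by decide +kernel)
    hP

/-- The lattice `b` is representable as soon as `M_4` is. -/
theorem rep_b {L : Type u} [Lattice L] [Finite L] (e : L ≃ Fin 7)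
    (he : ∀ x y, x ≤ y ↔ tb (e x) (e y) = true)
    (hM4 : ∀ (P : Type) [Lattice P] [Finite P] (e6 : P ≃ Fin 6),
      (∀ x y, x ≤ y ↔ tM4 (e6 x) (e6 y) = true) → Representable P) : Representable L := by
  have h1 : Representable LM4 := hM4 LM4 (Equiv.refl _) (fun _ _ => Iff.rfl)
  have h2 := rep_Lb h1
  let E : L ≃o Lb := { toEquiv := e, map_rel_iff' := fun {x y} => (he x y).symm }
  exact representable_of_orderIso E h2

/-! ### The table of `G` and the lattice `gd` -/

/-- The order of the six element lattice `G`: atoms `1, 2, 4`, then `1, 2 < 3` and top `5`. -/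
def tG (x y : Fin 6) : Bool := decide (x = 0 ∨ y = 5 ∨ x = y ∨ (x = 1 ∧ y = 3) ∨ (x = 2 ∧ y = 3))

/-- The lattice `G`, on `Fin 6`. -/
def LG : Type := Fin 6

instance : Fintype LG := inferInstanceAs (Fintype (Fin 6))
instance : DecidableEq LG := inferInstanceAs (DecidableEq (Fin 6))

/-- The join in `G`. -/
def supG (x y : Fin 6) : Fin 6 :=
  if tG x y then y else if tG y x then x else if tG x 3 ∧ tG y 3 then 3 else 5

/-- The meet in `G`. -/
def infG (x y : Fin 6) : Fin 6 :=
  if tG x y then x else if tG y x then y else 0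

instance : Lattice LG where
  le x y := tG x y = true
  le_refl := by unfold LG; decide
  le_trans := by unfold LG; decide
  le_antisymm := by unfold LG; decide
  sup := supG
  le_sup_left := by unfold LG; decide
  le_sup_right := by unfold LG; decide
  sup_le := by unfold LG; decide
  inf := infG
  inf_le_left := by unfold LG; decide
  inf_le_right := by unfold LG; decide
  le_inf := by unfold LG; decide

instance : Finite LG := inferInstanceAs (Finite (Fin 6))

/-- The order of `gd`: `0 < 1 < 2 < 4 < 6`, `0 < 3 < 4`, `0 < 5 < 6`. -/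
def tgd (x y : Fin 7) : Bool :=
  decide (x = 0 ∨ y = 6 ∨ x = y ∨ (x = 1 ∧ y = 2) ∨ (x = 1 ∧ y = 4) ∨ (x = 2 ∧ y = 4) ∨
    (x = 3 ∧ y = 4))

/-- The lattice `gd`, on `Fin 7`. -/
def Lgd : Type := Fin 7

instance : Fintype Lgd := inferInstanceAs (Fintype (Fin 7))
instance : DecidableEq Lgd := inferInstanceAs (DecidableEq (Fin 7))

/-- The join in `gd`. -/
def supgd (x y : Fin 7) : Fin 7 :=
  if tgd x y then y else if tgd y x then x else if tgd x 4 ∧ tgd y 4 then 4 else 6

/-- The meet in `gd`. -/
def infgd (x y : Fin 7) : Fin 7 :=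
  if tgd x y then x else if tgd y x then y else 0

instance : Lattice Lgd where
  le x y := tgd x y = true
  le_refl := by unfold Lgd; decide
  le_trans := by unfold Lgd; decide
  le_antisymm := by unfold Lgd; decide
  sup := supgd
  le_sup_left := by unfold Lgd; decide
  le_sup_right := by unfold Lgd; decide
  sup_le := by unfold Lgd; decide
  inf := infgd
  inf_le_left := by unfold Lgd; decide
  inf_le_right := by unfold Lgd; decide
  le_inf := by unfold Lgd; decide

instance : OrderBot Lgd where
  bot := (0 : Fin 7)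
  bot_le := fun x => (by decide : ∀ x : Fin 7, tgd 0 x = true) x

instance : DecidableLE Lgd := fun x y => inferInstanceAs (Decidable (tgd x y = true))

/-- The set `J0` of `gd`. -/
def J0gd : Finset Lgd := ({(1 : Fin 7), 3, 5} : Finset (Fin 7))

/-- The embedding of `G` as the join closure of `J0gd`. -/
def ggd (x : LG) : Lgd := (![0, 1, 3, 4, 5, 6] : Fin 6 → Fin 7) x

theorem rep_Lgd (hP : Representable LG) : Representable Lgd :=
  rep_of_checks J0gd
    (fun c hc => supIrred_of_check
      ((by decide +kernel : ∀ c : Lgd, c ∈ J0gd →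
        c ≠ ⊥ ∧ ∀ b d : Lgd, b ⊔ d = c → b = c ∨ d = c) c hc))
    (fun a ha B hB h1 h2 =>
      (by decide +kernel : ∀ a : Lgd, (a ≠ ⊥ ∧ ∀ b d : Lgd, b ⊔ d = a → b = a ∨ d = a) →
        ∀ B : Finset Lgd, B.Nonempty → a ≤ B.sup id → (∀ b ∈ B, ¬ a ≤ b) →
          (refined J0gd B).Nonempty ∧ a ≤ (refined J0gd B).sup id)
        a (check_of_supIrred ha) B hB h1 h2)
    ggd
    (by
      intro x y
      exact (by decide +kernel : ∀ x y : Fin 6,
        tgd ((![0, 1, 3, 4, 5, 6] : Fin 6 → Fin 7) x) ((![0, 1, 3, 4, 5, 6] : Fin 6 → Fin 7) y) = true ↔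
          tG x y = true) x y)
    (by decide +kernel)
    hP

/-- The lattice `gd` is representable as soon as `G` is. -/
theorem rep_gd {L : Type u} [Lattice L] [Finite L] (e : L ≃ Fin 7)
    (he : ∀ x y, x ≤ y ↔ tgd (e x) (e y) = true)
    (hG : ∀ (P : Type) [Lattice P] [Finite P] (e6 : P ≃ Fin 6),
      (∀ x y, x ≤ y ↔ tG (e6 x) (e6 y) = true) → Representable P) : Representable L := by
  have h1 : Representable LG := hG LG (Equiv.refl _) (fun _ _ => Iff.rfl)
  have h2 := rep_Lgd h1
  let E : L ≃o Lgd := { toEquiv := e, map_rel_iff' := fun {x y} => (he x y).symm }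
  exact representable_of_orderIso E h2

end Vale.Agent.P183L.Uni
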