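import Vale.Agent.P183L.Uni.C0
import Vale.Agent.P183L.Uni.C1
import Vale.Agent.P183L.Uni.H
import Vale.Agent.P183L.Uni.LiftBG
import Vale.Agent.P183L.L7

/-!
Duals of certified tables, and the special tables.
-/

namespace Vale.Agent.P183L.Small

open Vale.Agent.P183

universe u

theorem rep_v0d {L : Type u} [Lattice L] [Finite L] (e : L ≃ Fin 6)
    (he : ∀ x y : L, x ≤ y ↔ tblB 6 35175713471 (e x) (e y) = true) : Representable L := by
  obtain ⟨e', he'⟩ := table_via (fun a b : Fin 6 => tblB 6 35175713471 a.val b.val)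
    (fun a b : Fin 6 => tblB 6 35179940031 a.val b.val)
    (fun a : Fin 6 => ⟨gd [0, 2, 3, 4, 1, 5] a.val % 6, Nat.mod_lt _ (by decide)⟩)
    (by decide +kernel) (by decide +kernel) e he
  exact rep_u9 e' he'

theorem rep_v0 {L : Type u} [Lattice L] [Finite L] (e : L ≃ Fin 6)
    (he : ∀ x y : L, x ≤ y ↔ tblB 6 35175778495 (e x) (e y) = true) : Representable L :=
  rep_of_dual (b' := 35175713471) (by decide +kernel) (fun {_} _ _ e he => rep_v0d e he) e he

theorem rep_v1d {L : Type u} [Lattice L] [Finite L] (e : L ≃ Fin 7)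
    (he : ∀ x y : L, x ≤ y ↔ tblB 7 284795138680191 (e x) (e y) = true) : Representable L := by
  obtain ⟨e', he'⟩ := table_via (fun a b : Fin 7 => tblB 7 284795138680191 a.val b.val)
    (fun a b : Fin 7 => tblB 7 284803795591551 a.val b.val)
    (fun a : Fin 7 => ⟨gd [0, 3, 4, 5, 1, 2, 6] a.val % 7, Nat.mod_lt _ (by decide)⟩)
    (by decide +kernel) (by decide +kernel) e he
  exact rep_u23 e' he'

theorem rep_v1 {L : Type u} [Lattice L] [Finite L] (e : L ≃ Fin 7)
    (he : ∀ x y : L, x ≤ y ↔ tblB 7 284795239211391 (e x) (e y) = true) : Representable L :=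
  rep_of_dual (b' := 284795138680191) (by decide +kernel) (fun {_} _ _ e he => rep_v1d e he) e he

theorem rep_v2d {L : Type u} [Lattice L] [Finite L] (e : L ≃ Fin 7)
    (he : ∀ x y : L, x ≤ y ↔ tblB 7 284795172366719 (e x) (e y) = true) : Representable L := by
  obtain ⟨e', he'⟩ := table_via (fun a b : Fin 7 => tblB 7 284795172366719 a.val b.val)
    (fun a b : Fin 7 => tblB 7 284803796115839 a.val b.val)
    (fun a : Fin 7 => ⟨gd [0, 2, 3, 4, 5, 1, 6] a.val % 7, Nat.mod_lt _ (by decide)⟩)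
    (by decide +kernel) (by decide +kernel) e he
  exact rep_u60 e' he'

theorem rep_v2 {L : Type u} [Lattice L] [Finite L] (e : L ≃ Fin 7)
    (he : ∀ x y : L, x ≤ y ↔ tblB 7 284795139465599 (e x) (e y) = true) : Representable L :=
  rep_of_dual (b' := 284795172366719) (by decide +kernel) (fun {_} _ _ e he => rep_v2d e he) e he

theorem rep_v3d {L : Type u} [Lattice L] [Finite L] (e : L ≃ Fin 7)
    (he : ∀ x y : L, x ≤ y ↔ tblB 7 284795172498815 (e x) (e y) = true) : Representable L := by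
  obtain ⟨e', he'⟩ := table_via (fun a b : Fin 7 => tblB 7 284795172498815 a.val b.val)
    (fun a b : Fin 7 => tblB 7 284803829932415 a.val b.val)
    (fun a : Fin 7 => ⟨gd [0, 2, 3, 4, 5, 1, 6] a.val % 7, Nat.mod_lt _ (by decide)⟩)
    (by decide +kernel) (by decide +kernel) e he
  exact rep_u46 e' he'

theorem rep_v3 {L : Type u} [Lattice L] [Finite L] (e : L ≃ Fin 7)
    (he : ∀ x y : L, x ≤ y ↔ tblB 7 284795240128895 (e x) (e y) = true) : Representable L :=
  rep_of_dual (b' := 284795172498815) (by decide +kernel) (fun {_} _ _ e he => rep_v3d e he) e he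

theorem rep_v4d {L : Type u} [Lattice L] [Finite L] (e : L ≃ Fin 7)
    (he : ∀ x y : L, x ≤ y ↔ tblB 7 284795138946431 (e x) (e y) = true) : Representable L := by
  obtain ⟨e', he'⟩ := table_via (fun a b : Fin 7 => tblB 7 284795138946431 a.val b.val)
    (fun a b : Fin 7 => tblB 7 284795139209599 a.val b.val)
    (fun a : Fin 7 => ⟨gd [0, 1, 2, 5, 3, 4, 6] a.val % 7, Nat.mod_lt _ (by decide)⟩)
    (by decide +kernel) (by decide +kernel) e he
  exact rep_u26 e' he'

theorem rep_v4 {L : Type u} [Lattice L] [Finite L] (e : L ≃ Fin 7)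
    (he : ∀ x y : L, x ≤ y ↔ tblB 7 284795239477631 (e x) (e y) = true) : Representable L :=
  rep_of_dual (b' := 284795138946431) (by decide +kernel) (fun {_} _ _ e he => rep_v4d e he) e he

theorem rep_v5d {L : Type u} [Lattice L] [Finite L] (e : L ≃ Fin 7)
    (he : ∀ x y : L, x ≤ y ↔ tblB 7 284795172368767 (e x) (e y) = true) : Representable L := by
  obtain ⟨e', he'⟩ := table_via (fun a b : Fin 7 => tblB 7 284795172368767 a.val b.val)
    (fun a b : Fin 7 => tblB 7 284795172630911 a.val b.val)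
    (fun a : Fin 7 => ⟨gd [0, 3, 1, 2, 5, 4, 6] a.val % 7, Nat.mod_lt _ (by decide)⟩)
    (by decide +kernel) (by decide +kernel) e he
  exact rep_u58 e' he'

theorem rep_v5 {L : Type u} [Lattice L] [Finite L] (e : L ≃ Fin 7)
    (he : ∀ x y : L, x ≤ y ↔ tblB 7 284795138945407 (e x) (e y) = true) : Representable L :=
  rep_of_dual (b' := 284795172368767) (by decide +kernel) (fun {_} _ _ e he => rep_v5d e he) e he

theorem rep_v6d {L : Type u} [Lattice L] [Finite L] (e : L ≃ Fin 7)
    (he : ∀ x y : L, x ≤ y ↔ tblB 7 284795172372351 (e x) (e y) = true) : Representable L := by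
  obtain ⟨e', he'⟩ := table_via (fun a b : Fin 7 => tblB 7 284795172372351 a.val b.val)
    (fun a b : Fin 7 => tblB 7 284803795599231 a.val b.val)
    (fun a : Fin 7 => ⟨gd [0, 1, 3, 4, 5, 2, 6] a.val % 7, Nat.mod_lt _ (by decide)⟩)
    (by decide +kernel) (by decide +kernel) e he
  exact rep_u35 e' he'

theorem rep_v6 {L : Type u} [Lattice L] [Finite L] (e : L ≃ Fin 7)
    (he : ∀ x y : L, x ≤ y ↔ tblB 7 284803796513151 (e x) (e y) = true) : Representable L :=
  rep_of_dual (b' := 284795172372351) (by decide +kernel) (fun {_} _ _ e he => rep_v6d e he) e he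

theorem rep_v7d {L : Type u} [Lattice L] [Finite L] (e : L ≃ Fin 7)
    (he : ∀ x y : L, x ≤ y ↔ tblB 7 284803796120447 (e x) (e y) = true) : Representable L := by
  obtain ⟨e', he'⟩ := table_via (fun a b : Fin 7 => tblB 7 284803796120447 a.val b.val)
    (fun a b : Fin 7 => tblB 7 284803829674367 a.val b.val)
    (fun a : Fin 7 => ⟨gd [0, 3, 4, 1, 2, 5, 6] a.val % 7, Nat.mod_lt _ (by decide)⟩)
    (by decide +kernel) (by decide +kernel) e he
  exact rep_u55 e' he'

theorem rep_v7 {L : Type u} [Lattice L] [Finite L] (e : L ≃ Fin 7)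
    (he : ∀ x y : L, x ≤ y ↔ tblB 7 284803728490367 (e x) (e y) = true) : Representable L :=
  rep_of_dual (b' := 284803796120447) (by decide +kernel) (fun {_} _ _ e he => rep_v7d e he) e he

theorem rep_v8d {L : Type u} [Lattice L] [Finite L] (e : L ≃ Fin 7)
    (he : ∀ x y : L, x ≤ y ↔ tblB 7 284803796252031 (e x) (e y) = true) : Representable L := by
  obtain ⟨e', he'⟩ := table_via (fun a b : Fin 7 => tblB 7 284803796252031 a.val b.val)
    (fun a b : Fin 7 => tblB 7 284803829936511 a.val b.val)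
    (fun a : Fin 7 => ⟨gd [0, 2, 3, 4, 1, 5, 6] a.val % 7, Nat.mod_lt _ (by decide)⟩)
    (by decide +kernel) (by decide +kernel) e he
  exact rep_u27 e' he'

theorem rep_v8 {L : Type u} [Lattice L] [Finite L] (e : L ≃ Fin 7)
    (he : ∀ x y : L, x ≤ y ↔ tblB 7 284795239219071 (e x) (e y) = true) : Representable L :=
  rep_of_dual (b' := 284803796252031) (by decide +kernel) (fun {_} _ _ e he => rep_v8d e he) e he

theorem rep_v9d {L : Type u} [Lattice L] [Finite L] (e : L ≃ Fin 7)
    (he : ∀ x y : L, x ≤ y ↔ tblB 7 284803796253055 (e x) (e y) = true) : Representable L := by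
  obtain ⟨e', he'⟩ := table_via (fun a b : Fin 7 => tblB 7 284803796253055 a.val b.val)
    (fun a b : Fin 7 => tblB 7 284803796253055 a.val b.val)
    (fun a : Fin 7 => ⟨gd [0, 1, 2, 3, 4, 5, 6] a.val % 7, Nat.mod_lt _ (by decide)⟩)
    (by decide +kernel) (by decide +kernel) e he
  exact rep_u50 e' he'

theorem rep_v9 {L : Type u} [Lattice L] [Finite L] (e : L ≃ Fin 7)
    (he : ∀ x y : L, x ≤ y ↔ tblB 7 284795172634495 (e x) (e y) = true) : Representable L :=
  rep_of_dual (b' := 284803796253055) (by decide +kernel) (fun {_} _ _ e he => rep_v9d e he) e he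

theorem rep_b {L : Type u} [Lattice L] [Finite L] (e : L ≃ Fin 7)
    (he : ∀ x y : L, x ≤ y ↔ tblB 7 284803728482687 (e x) (e y) = true) : Representable L := by
  obtain ⟨e', he'⟩ := table_via (fun a b : Fin 7 => tblB 7 284803728482687 a.val b.val) Uni.tb
    (fun a : Fin 7 => ⟨gd [0, 3, 4, 5, 1, 2, 6] a.val % 7, Nat.mod_lt _ (by decide)⟩)
    (by decide +kernel) (by decide +kernel) e he
  refine Uni.rep_b e' he' ?_
  intro P _ _ e6 h6
  obtain ⟨e2, he2⟩ := table_via Uni.tM4 (fun a b : Fin 6 => tblB 6 35175680191 a.val b.val)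
    (fun a : Fin 6 => ⟨gd [0, 1, 2, 3, 4, 5] a.val % 6, Nat.mod_lt _ (by decide)⟩)
    (by decide +kernel) (by decide +kernel) e6 h6
  exact rep_u18 e2 he2

theorem rep_gd {L : Type u} [Lattice L] [Finite L] (e : L ≃ Fin 7)
    (he : ∀ x y : L, x ≤ y ↔ tblB 7 284803829670271 (e x) (e y) = true) : Representable L := by
  obtain ⟨e', he'⟩ := table_via (fun a b : Fin 7 => tblB 7 284803829670271 a.val b.val) Uni.tgd
    (fun a : Fin 7 => ⟨gd [0, 5, 3, 1, 2, 4, 6] a.val % 7, Nat.mod_lt _ (by decide)⟩)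
    (by decide +kernel) (by decide +kernel) e he
  refine Uni.rep_gd e' he' ?_
  intro P _ _ e6 h6
  obtain ⟨e2, he2⟩ := table_via Uni.tG (fun a b : Fin 6 => tblB 6 35179940031 a.val b.val)
    (fun a : Fin 6 => ⟨gd [0, 2, 3, 4, 1, 5] a.val % 6, Nat.mod_lt _ (by decide)⟩)
    (by decide +kernel) (by decide +kernel) e6 h6
  exact rep_u9 e2 he2

theorem rep_gdual {L : Type u} [Lattice L] [Finite L] (e : L ≃ Fin 7)
    (he : ∀ x y : L, x ≤ y ↔ tblB 7 284795172367231 (e x) (e y) = true) : Representable L := by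
  obtain ⟨e', he'⟩ := table_via (fun a b : Fin 7 => tblB 7 284795172367231 a.val b.val)
    (fun a b : Fin 7 => tblB 7 284803829670271 a.val b.val)
    (fun a : Fin 7 => ⟨gd [0, 3, 4, 2, 5, 1, 6] a.val % 7, Nat.mod_lt _ (by decide)⟩)
    (by decide +kernel) (by decide +kernel) e he
  exact rep_gd e' he'

theorem rep_g {L : Type u} [Lattice L] [Finite L] (e : L ≃ Fin 7)
    (he : ∀ x y : L, x ≤ y ↔ tblB 7 284803729400191 (e x) (e y) = true) : Representable L :=
  rep_of_dual (b' := 284795172367231) (by decide +kernel) (fun {_} _ _ e he => rep_gdual e he) e he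

theorem rep_L7 {L : Type u} [Lattice L] [Finite L] (e : L ≃ Fin 7)
    (he : ∀ x y : L, x ≤ y ↔ tblB 7 284795239735679 (e x) (e y) = true) : Representable L := by
  obtain ⟨e', he'⟩ := table_via (fun a b : Fin 7 => tblB 7 284795239735679 a.val b.val)
    (fun a b : Fin 7 => decide (le7 a b))
    (fun a : Fin 7 => ⟨gd [0, 3, 2, 1, 5, 4, 6] a.val % 7, Nat.mod_lt _ (by decide)⟩)
    (by decide +kernel) (by decide +kernel) e he
  refine rep_of_orderEquiv representable_L7 (show L ≃ Fin 7 from e') ?_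
  intro x y
  rw [he']
  show le7 (e' x) (e' y) ↔ decide (le7 (e' x) (e' y)) = true
  simp

end Vale.Agent.P183L.Small
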