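import Vale.Agent.P183L.Uni.Base
import Vale.Agent.P183.Cut.Basic

/-!
Lattices given by order tables, cuts of representable tables.
-/

namespace Vale.Agent.P183L.Small

open Vale.Agent.P183

universe u

/-- The elements of the lattice with the order table `bits`. -/
def TL (n _bits : ℕ) : Type := Fin n

instance (n bits : ℕ) : Finite (TL n bits) := inferInstanceAs (Finite (Fin n))

/-- The order table `bits` is the table of a lattice. -/
structure TLok (n bits : ℕ) : Prop where
  refl : ∀ a : Fin n, tblB n bits a a = true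
  trans : ∀ a : Fin n, ∀ b : Fin n, ∀ c : Fin n, tblB n bits a b = true → tblB n bits b c = true →
    tblB n bits a c = true
  antisymm : ∀ a : Fin n, ∀ b : Fin n, tblB n bits a b = true → tblB n bits b a = true → a = b
  lub : ∀ a : Fin n, ∀ b : Fin n, ∃ c : Fin n, ∀ d : Fin n,
    tblB n bits c d = true ↔ (tblB n bits a d = true ∧ tblB n bits b d = true)
  glb : ∀ a : Fin n, ∀ b : Fin n, ∃ c : Fin n, ∀ d : Fin n,
    tblB n bits d c = true ↔ (tblB n bits d a = true ∧ tblB n bits d b = true)

/-- The lattice of an order table. -/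
@[instance_reducible] noncomputable def TLok.lattice {n bits : ℕ} (h : TLok n bits) : Lattice (TL n bits) where
  le a b := tblB n bits (show Fin n from a) (show Fin n from b) = true
  le_refl a := h.refl a
  le_trans a b c := h.trans a b c
  le_antisymm a b := h.antisymm a b
  sup a b := Classical.choose (h.lub a b)
  le_sup_left a b := ((Classical.choose_spec (h.lub a b) _).1 (h.refl _)).1
  le_sup_right a b := ((Classical.choose_spec (h.lub a b) _).1 (h.refl _)).2
  sup_le a b c h1 h2 := (Classical.choose_spec (h.lub a b) c).2 ⟨h1, h2⟩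
  inf a b := Classical.choose (h.glb a b)
  inf_le_left a b := ((Classical.choose_spec (h.glb a b) _).1 (h.refl _)).1
  inf_le_right a b := ((Classical.choose_spec (h.glb a b) _).1 (h.refl _)).2
  le_inf a b c h1 h2 := (Classical.choose_spec (h.glb b c) a).2 ⟨h1, h2⟩

/-- Renumbering an order table. -/
theorem table_via {n : ℕ} {L : Type u} [LE L] (t t' : Fin n → Fin n → Bool) (f : Fin n → Fin n)
    (hf : Function.Bijective f) (h : ∀ a b, t' (f a) (f b) = t a b) (e : L ≃ Fin n)
    (he : ∀ x y : L, x ≤ y ↔ t (e x) (e y) = true) :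
    ∃ e' : L ≃ Fin n, ∀ x y : L, x ≤ y ↔ t' (e' x) (e' y) = true := by
  refine ⟨e.trans (Equiv.ofBijective f hf), fun x y => ?_⟩
  rw [he]
  show t (e x) (e y) = true ↔ t' (f (e x)) (f (e y)) = true
  rw [h]

/-- A partial order of a different universe isomorphic to `L` gives representability of `L`. -/
theorem rep_of_orderEquiv {L : Type u} [PartialOrder L] {P : Type} [PartialOrder P] (h : Representable P)
    (f : L ≃ P) (hf : ∀ x y, f x ≤ f y ↔ x ≤ y) : Representable L := by
  obtain ⟨A, hfin, hne, n, ar, op, ⟨g⟩⟩ := h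
  exact ⟨A, hfin, hne, n, ar, op, ⟨(⟨f, fun {x y} => hf x y⟩ : L ≃o P).trans g⟩⟩

/-- The order table `b7` is a cut of the representable table `b12`. -/
theorem rep_of_cut {n7 n12 b7 b12 : ℕ} (ok : TLok n12 b12)
    (hrep : @Representable (TL n12 b12) ok.lattice.toPartialOrder) (s a : Fin n12)
    (φ : Fin n7 → Fin n12)
    (h1 : ∀ x : Fin n7, ∀ y : Fin n7, tblB n7 b7 x y = tblB n12 b12 (φ x) (φ y))
    (h2 : ∀ x : Fin n7, tblB n12 b12 (φ x) s = true ∨ tblB n12 b12 a (φ x) = true)
    (h3 : ∀ y : Fin n12, tblB n12 b12 y s = true ∨ tblB n12 b12 a y = true → ∃ x : Fin n7, φ x = y)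
    (hinj : ∀ x : Fin n7, ∀ y : Fin n7, φ x = φ y → x = y)
    {L : Type u} [Lattice L] [Finite L] (e : L ≃ Fin n7)
    (he : ∀ x y : L, x ≤ y ↔ tblB n7 b7 (e x) (e y) = true) : Representable L := by
  let _ := ok.lattice
  let s' : TL n12 b12 := s
  let a' : TL n12 b12 := a
  have hC := Up.representable_cut (M := TL n12 b12) s' a' hrep
  let φ' : L → TL n12 b12 := fun x => φ (e x)
  let f0 : L → {x : TL n12 b12 // x ≤ s' ∨ a' ≤ x} := fun x => ⟨φ' x, h2 (e x)⟩
  have finj : Function.Injective f0 := by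
    intro x y hxy
    have h4 : φ (e x) = φ (e y) := congrArg Subtype.val hxy
    exact e.injective (hinj _ _ h4)
  have fsurj : Function.Surjective f0 := by
    rintro ⟨y, hy⟩
    obtain ⟨x, hx⟩ := h3 y hy
    refine ⟨e.symm x, Subtype.ext ?_⟩
    show φ (e (e.symm x)) = y
    rw [Equiv.apply_symm_apply]
    exact hx
  refine rep_of_orderEquiv hC (Equiv.ofBijective f0 ⟨finj, fsurj⟩) ?_
  intro x y
  show tblB n12 b12 (φ (e x)) (φ (e y)) = true ↔ x ≤ y
  rw [he, h1]

end Vale.Agent.P183L.Small
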